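import Vale.Agent.P154.Glue
import Vale.Agent.P154.C4M0
import Vale.Agent.P154.C4M1

namespace Vale.Agent.Results.P154.Ferro

open Vale.Agent.P154

theorem result (q : ℕ) (lam : ℝ)
    (h : (q = 3 ∧ -(19 / 100) ≤ lam ∧ lam ≤ 1) ∨ (q = 4 ∧ 0 ≤ lam ∧ lam ≤ 1)) :
    (∀ d : ℕ, 2 ≤ d → (Recon (adv q lam (regular d)) ↔ 1 < (d : ℝ) * lam ^ 2) ∧
      (NonRecon (adv q lam (regular d)) ↔ (d : ℝ) * lam ^ 2 ≤ 1)) ∧
    (∀ d : ℝ, 0 < d → (Recon (adv q lam (poisson d)) ↔ 1 < d * lam ^ 2) ∧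
      (NonRecon (adv q lam (poisson d)) ↔ d * lam ^ 2 ≤ 1)) := by
  rcases h with ⟨rfl, h0, h1⟩ | ⟨rfl, h0, h1⟩
  · have hl : Adm 3 lam := ⟨by push_cast; linarith, h1⟩
    exact ⟨fun d hd => iff_of (by norm_num) hl (off_regular hd) (small3 h0 h1 (off_regular hd)),
      fun d hd => iff_of (by norm_num) hl (off_poisson hd) (small3 h0 h1 (off_poisson hd))⟩
  · have hl : Adm 4 lam := ⟨by push_cast; linarith, h1⟩
    exact ⟨fun d hd => iff_of (by norm_num) hl (off_regular hd)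
        (ferro4 c4m1_ok (by norm_num) c4m0_ok h0 h1 (off_regular hd)),
      fun d hd => iff_of (by norm_num) hl (off_poisson hd)
        (ferro4 c4m1_ok (by norm_num) c4m0_ok h0 h1 (off_poisson hd))⟩

end Vale.Agent.Results.P154.Ferro
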